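import Vale.Agent.Results.P340.A_finite_core

/-! Confluence of beta reduction on pure type system expressions (parallel reduction and complete
developments), and generation lemmas for variables and applications. -/

namespace Vale.Agent.Lib.P340

open Vale.Agent.Results.P340.A_finite_core PExpr

universe u

variable {σ : Type u}

theorem lift_lift_le (M : PExpr σ) : ∀ c d : ℕ, c ≤ d → lift c (lift d M) = lift (d + 1) (lift c M) := by
  induction M with
  | var n =>
      intro c d h
      simp only [lift]
      by_cases h1 : n < d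
      · by_cases h2 : n < c
        · simp [lift, h1, h2, show n < d + 1 by omega]
        · simp [lift, h1, h2, show n + 1 < d + 1 by omega]
      · have h3 : ¬ n < c := by omega
        have h4 : ¬ n + 1 < c := by omega
        have h5 : ¬ n + 1 < d + 1 := by omega
        simp [lift, h1, h3, h4, h5]
  | srt s => intro c d _; rfl
  | app M N ihM ihN =>
      intro c d h
      simp only [lift, ihM c d h, ihN c d h]
  | lam A M ihA ihM =>
      intro c d h
      simp only [lift, ihA c d h, ihM (c + 1) (d + 1) (by omega)]
  | pi A M ihA ihM =>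
      intro c d h
      simp only [lift, ihA c d h, ihM (c + 1) (d + 1) (by omega)]

theorem subst_lift_self (M : PExpr σ) : ∀ (k : ℕ) (N : PExpr σ), subst k N (lift k M) = M := by
  induction M with
  | var n =>
      intro k N
      by_cases h : n < k
      · simp [lift, subst, h]
      · have h1 : ¬ n + 1 < k := by omega
        have h2 : n + 1 ≠ k := by omega
        simp [lift, subst, h, h1, h2]
  | srt s => intro k N; rfl
  | app M N ihM ihN =>
      intro k L
      simp only [lift, subst, ihM, ihN]
  | lam A M ihA ihM =>
      intro k L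
      simp only [lift, subst, ihA, ihM]
  | pi A M ihA ihM =>
      intro k L
      simp only [lift, subst, ihA, ihM]

theorem lift_subst_hi (M : PExpr σ) : ∀ (c k : ℕ) (N : PExpr σ), c ≤ k →
    lift c (subst k N M) = subst (k + 1) (lift c N) (lift c M) := by
  induction M with
  | var n =>
      intro c k N h
      by_cases h1 : n < k
      · by_cases h2 : n < c
        · simp [lift, subst, h1, h2, show n < k + 1 by omega]
        · have h3 : n + 1 < k + 1 := by omega
          simp [lift, subst, h1, h2, h3]
      · by_cases h4 : n = k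
        · subst h4
          have h5 : ¬ n < c ∨ c = n := by omega
          have h6 : ¬ n < c := by omega
          simp [lift, subst, h6]
        · have h7 : ¬ n < c := by omega
          have h8 : ¬ n - 1 < c := by omega
          have h9 : ¬ n + 1 < k + 1 := by omega
          have h10 : n + 1 ≠ k + 1 := by omega
          have h11 : n - 1 + 1 = n := by omega
          simp [lift, subst, h1, h4, h7, h8, h9, h11]
  | srt s => intro c k N _; rfl
  | app M N ihM ihN =>
      intro c k L h
      simp only [lift, subst, ihM c k L h, ihN c k L h]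
  | lam A M ihA ihM =>
      intro c k L h
      simp only [lift, subst, ihA c k L h, ihM (c + 1) (k + 1) (lift 0 L) (by omega),
        lift_lift_le L 0 c (Nat.zero_le c)]
  | pi A M ihA ihM =>
      intro c k L h
      simp only [lift, subst, ihA c k L h, ihM (c + 1) (k + 1) (lift 0 L) (by omega),
        lift_lift_le L 0 c (Nat.zero_le c)]

theorem lift_subst_lo (M : PExpr σ) : ∀ (c k : ℕ) (N : PExpr σ), k ≤ c →
    lift c (subst k N M) = subst k (lift c N) (lift (c + 1) M) := by
  induction M with
  | var n =>
      intro c k N h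
      by_cases h1 : n < k
      · have h2 : n < c := by omega
        have h3 : n < c + 1 := by omega
        simp [lift, subst, h1, h2, h3]
      · by_cases h4 : n = k
        · subst h4
          have h3 : n < c + 1 := by omega
          simp [lift, subst, h3]
        · by_cases h5 : n < c + 1
          · have h6 : n - 1 < c := by omega
            simp [lift, subst, h1, h4, h5, h6]
          · have h6 : ¬ n - 1 < c := by omega
            have h7 : ¬ n + 1 < k := by omega
            have h8 : n + 1 ≠ k := by omega
            have h9 : n - 1 + 1 = n := by omega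
            simp [lift, subst, h1, h4, h5, h6, h7, h8, h9]
  | srt s => intro c k N _; rfl
  | app M N ihM ihN =>
      intro c k L h
      simp only [lift, subst, ihM c k L h, ihN c k L h]
  | lam A M ihA ihM =>
      intro c k L h
      simp only [lift, subst, ihA c k L h, ihM (c + 1) (k + 1) (lift 0 L) (by omega),
        lift_lift_le L 0 c (Nat.zero_le c)]
  | pi A M ihA ihM =>
      intro c k L h
      simp only [lift, subst, ihA c k L h, ihM (c + 1) (k + 1) (lift 0 L) (by omega),
        lift_lift_le L 0 c (Nat.zero_le c)]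

theorem subst_subst_le (M : PExpr σ) : ∀ (j k : ℕ) (N L : PExpr σ), j ≤ k →
    subst k N (subst j L M) = subst j (subst k N L) (subst (k + 1) (lift j N) M) := by
  induction M with
  | var n =>
      intro j k N L h
      by_cases h1 : n < j
      · have h2 : n < k := by omega
        have h3 : n < k + 1 := by omega
        simp [subst, h1, h2, h3]
      · by_cases h4 : n = j
        · subst h4
          have h3 : n < k + 1 := by omega
          simp [subst, h3]
        · by_cases h5 : n < k + 1
          · have h6 : n - 1 < k := by omega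
            simp [subst, h1, h4, h5, h6]
          · by_cases h7 : n = k + 1
            · subst h7
              have h8 : ¬ k + 1 < j := by omega
              have h9 : k + 1 ≠ j := by omega
              simp [subst, h8, h9, subst_lift_self]
            · have h8 : ¬ n - 1 < k := by omega
              have h9 : n - 1 ≠ k := by omega
              have h10 : ¬ n - 1 < j := by omega
              have h11 : n - 1 ≠ j := by omega
              simp [subst, h1, h4, h5, h7, h8, h9, h10, h11]
  | srt s => intro j k N L _; rfl
  | app M M' ihM ihM' =>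
      intro j k N L h
      simp only [subst, ihM j k N L h, ihM' j k N L h]
  | lam A M ihA ihM =>
      intro j k N L h
      simp only [subst, ihA j k N L h, ihM (j + 1) (k + 1) (lift 0 N) (lift 0 L) (by omega),
        lift_subst_hi L 0 k N (Nat.zero_le k), lift_lift_le N 0 j (Nat.zero_le j)]
  | pi A M ihA ihM =>
      intro j k N L h
      simp only [subst, ihA j k N L h, ihM (j + 1) (k + 1) (lift 0 N) (lift 0 L) (by omega),
        lift_subst_hi L 0 k N (Nat.zero_le k), lift_lift_le N 0 j (Nat.zero_le j)]

/-- Parallel reduction. -/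
inductive Par : PExpr σ → PExpr σ → Prop
  | var (i : ℕ) : Par (var i) (var i)
  | srt (s : σ) : Par (srt s) (srt s)
  | app {M M' N N' : PExpr σ} : Par M M' → Par N N' → Par (app M N) (app M' N')
  | lam {A A' M M' : PExpr σ} : Par A A' → Par M M' → Par (lam A M) (lam A' M')
  | pi {A A' B B' : PExpr σ} : Par A A' → Par B B' → Par (pi A B) (pi A' B')
  | beta (A : PExpr σ) {M M' N N' : PExpr σ} : Par M M' → Par N N' →
      Par (PExpr.app (PExpr.lam A M) N) (subst 0 N' M')

theorem Par.refl : ∀ M : PExpr σ, Par M M
  | .var i => Par.var i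
  | .srt s => Par.srt s
  | .app M N => Par.app (Par.refl M) (Par.refl N)
  | .lam A M => Par.lam (Par.refl A) (Par.refl M)
  | .pi A M => Par.pi (Par.refl A) (Par.refl M)

theorem Par.lift {M M' : PExpr σ} (h : Par M M') : ∀ c, Par (lift c M) (lift c M') := by
  induction h with
  | var i => intro c; exact Par.refl _
  | srt s => intro c; exact Par.refl _
  | app _ _ ih₁ ih₂ => intro c; exact Par.app (ih₁ c) (ih₂ c)
  | lam _ _ ih₁ ih₂ => intro c; exact Par.lam (ih₁ c) (ih₂ (c + 1))
  | pi _ _ ih₁ ih₂ => intro c; exact Par.pi (ih₁ c) (ih₂ (c + 1))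
  | beta A _ _ ih₁ ih₂ =>
      intro c
      have := Par.beta (Vale.Agent.Results.P340.A_finite_core.lift c A) (ih₁ (c + 1)) (ih₂ c)
      rw [lift_subst_lo _ c 0 _ (Nat.zero_le c)]
      exact this

theorem Par.subst {M M' : PExpr σ} (h : Par M M') : ∀ (k : ℕ) {N N' : PExpr σ}, Par N N' →
    Par (subst k N M) (subst k N' M') := by
  induction h with
  | var i =>
      intro k N N' hN
      by_cases h1 : i < k
      · simp only [Vale.Agent.Results.P340.A_finite_core.subst, h1, if_true]
        exact Par.var i
      · by_cases h2 : i = k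
        · subst h2
          simp only [Vale.Agent.Results.P340.A_finite_core.subst, lt_irrefl, if_false, if_true]
          exact hN
        · simp only [Vale.Agent.Results.P340.A_finite_core.subst, h1, if_false, h2]
          exact Par.var _
  | srt s => intro k N N' _; exact Par.srt s
  | app _ _ ih₁ ih₂ => intro k N N' hN; exact Par.app (ih₁ k hN) (ih₂ k hN)
  | lam _ _ ih₁ ih₂ => intro k N N' hN; exact Par.lam (ih₁ k hN) (ih₂ (k + 1) (hN.lift 0))
  | pi _ _ ih₁ ih₂ => intro k N N' hN; exact Par.pi (ih₁ k hN) (ih₂ (k + 1) (hN.lift 0))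
  | beta A _ _ ih₁ ih₂ =>
      intro k N N' hN
      rw [subst_subst_le _ 0 k _ _ (Nat.zero_le k)]
      exact Par.beta _ (ih₁ (k + 1) (hN.lift 0)) (ih₂ k hN)

/-- Complete development. -/
def cd : PExpr σ → PExpr σ
  | .var i => .var i
  | .srt s => .srt s
  | .app (.lam _ M) N => subst 0 (cd N) (cd M)
  | .app M N => .app (cd M) (cd N)
  | .lam A M => .lam (cd A) (cd M)
  | .pi A B => .pi (cd A) (cd B)

theorem Par.cd {M N : PExpr σ} (h : Par M N) : Par N (cd M) := by
  induction h with
  | var i => exact Par.var i
  | srt s => exact Par.srt s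
  | @app M M' N N' h₁ _ ih₁ ih₂ =>
      cases M with
      | lam A M₀ =>
          cases h₁ with
          | lam hA hM =>
              cases ih₁ with
              | lam _ hM' =>
                  exact Par.beta _ hM' ih₂
      | var i => exact Par.app ih₁ ih₂
      | srt s => exact Par.app ih₁ ih₂
      | app M₁ M₂ => exact Par.app ih₁ ih₂
      | pi A B => exact Par.app ih₁ ih₂
  | lam _ _ ih₁ ih₂ => exact Par.lam ih₁ ih₂
  | pi _ _ ih₁ ih₂ => exact Par.pi ih₁ ih₂
  | beta A _ _ ih₁ ih₂ => exact ih₁.subst 0 ih₂

theorem Par.of_step {M N : PExpr σ} (h : Step M N) : Par M N := by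
  induction h with
  | beta A M N => exact Par.beta A (Par.refl M) (Par.refl N)
  | appL N _ ih => exact Par.app ih (Par.refl N)
  | appR M _ ih => exact Par.app (Par.refl M) ih
  | lamL M _ ih => exact Par.lam ih (Par.refl M)
  | lamR A _ ih => exact Par.lam (Par.refl A) ih
  | piL B _ ih => exact Par.pi ih (Par.refl B)
  | piR A _ ih => exact Par.pi (Par.refl A) ih

abbrev Red (M N : PExpr σ) : Prop := Relation.ReflTransGen Step M N

theorem red_app {M M' N N' : PExpr σ} (h₁ : Red M M') (h₂ : Red N N') :
    Red (.app M N) (.app M' N') :=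
  (h₁.lift (fun x => PExpr.app x N) (fun _ _ h => Step.appL N h)).trans
    (h₂.lift (fun x => PExpr.app M' x) (fun _ _ h => Step.appR M' h))

theorem red_lam {M M' N N' : PExpr σ} (h₁ : Red M M') (h₂ : Red N N') :
    Red (.lam M N) (.lam M' N') :=
  (h₁.lift (fun x => PExpr.lam x N) (fun _ _ h => Step.lamL N h)).trans
    (h₂.lift (fun x => PExpr.lam M' x) (fun _ _ h => Step.lamR M' h))

theorem red_pi {M M' N N' : PExpr σ} (h₁ : Red M M') (h₂ : Red N N') :
    Red (.pi M N) (.pi M' N') :=
  (h₁.lift (fun x => PExpr.pi x N) (fun _ _ h => Step.piL N h)).trans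
    (h₂.lift (fun x => PExpr.pi M' x) (fun _ _ h => Step.piR M' h))

theorem Par.red {M N : PExpr σ} (h : Par M N) : Red M N := by
  induction h with
  | var i => exact Relation.ReflTransGen.refl
  | srt s => exact Relation.ReflTransGen.refl
  | app _ _ ih₁ ih₂ => exact red_app ih₁ ih₂
  | lam _ _ ih₁ ih₂ => exact red_lam ih₁ ih₂
  | pi _ _ ih₁ ih₂ => exact red_pi ih₁ ih₂
  | beta A _ _ ih₁ ih₂ =>
      exact (red_app (red_lam Relation.ReflTransGen.refl ih₁) ih₂).tail (Step.beta _ _ _)

theorem par_star_iff {M N : PExpr σ} : Relation.ReflTransGen Par M N ↔ Red M N := by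
  constructor
  · intro h
    induction h with
    | refl => exact Relation.ReflTransGen.refl
    | tail _ h ih => exact ih.trans h.red
  · intro h
    induction h with
    | refl => exact Relation.ReflTransGen.refl
    | tail _ h ih => exact ih.tail (Par.of_step h)

/-- Confluence of beta reduction. -/
theorem confluence {M A B : PExpr σ} (h₁ : Red M A) (h₂ : Red M B) :
    ∃ C, Red A C ∧ Red B C := by
  have key := Relation.church_rosser (r := (Par : PExpr σ → PExpr σ → Prop))
    (fun a b c hb hc => ⟨cd a, Relation.ReflGen.single hb.cd, Relation.ReflTransGen.single hc.cd⟩)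
    (par_star_iff.2 h₁) (par_star_iff.2 h₂)
  obtain ⟨C, hA, hB⟩ := key
  exact ⟨C, par_star_iff.1 hA, par_star_iff.1 hB⟩

/-- Church-Rosser: convertible expressions have a common reduct. -/
theorem church_rosser {A B : PExpr σ} (h : Relation.EqvGen Step A B) : ∃ C, Red A C ∧ Red B C := by
  induction h with
  | rel a b h => exact ⟨b, Relation.ReflTransGen.single h, Relation.ReflTransGen.refl⟩
  | refl a => exact ⟨a, Relation.ReflTransGen.refl, Relation.ReflTransGen.refl⟩
  | symm a b _ ih =>
      obtain ⟨C, h₁, h₂⟩ := ih
      exact ⟨C, h₂, h₁⟩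
  | trans a b c _ _ ih₁ ih₂ =>
      obtain ⟨C₁, h₁, h₂⟩ := ih₁
      obtain ⟨C₂, h₃, h₄⟩ := ih₂
      obtain ⟨C, h₅, h₆⟩ := confluence h₂ h₃
      exact ⟨C, h₁.trans h₅, h₄.trans h₆⟩

/-- Normal expressions. -/
def Normal (M : PExpr σ) : Prop := ∀ N, ¬ Step M N

theorem Normal.red_eq {M N : PExpr σ} (h : Normal M) (hr : Red M N) : M = N := by
  induction hr using Relation.ReflTransGen.head_induction_on with
  | refl => rfl
  | head hs _ _ => exact absurd hs (h _)

theorem normal_unique {M A B : PExpr σ} (hA : Normal A) (hB : Normal B) (h₁ : Red M A)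
    (h₂ : Red M B) : A = B := by
  obtain ⟨C, h₃, h₄⟩ := confluence h₁ h₂
  rw [hA.red_eq h₃, hB.red_eq h₄]

theorem Normal.pi_left {A B : PExpr σ} (h : Normal (.pi A B)) : Normal A :=
  fun N hN => h _ (Step.piL B hN)

theorem Normal.app_right {A B : PExpr σ} (h : Normal (.app A B)) : Normal B :=
  fun N hN => h _ (Step.appR A hN)

theorem red_pi_inv {A B X : PExpr σ} (h : Red (.pi A B) X) :
    ∃ A' B', X = .pi A' B' ∧ Red A A' ∧ Red B B' := by
  induction h with
  | refl => exact ⟨A, B, rfl, Relation.ReflTransGen.refl, Relation.ReflTransGen.refl⟩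
  | tail _ hs ih =>
      obtain ⟨A', B', rfl, h₁, h₂⟩ := ih
      cases hs with
      | piL _ h => exact ⟨_, _, rfl, h₁.tail h, h₂⟩
      | piR _ h => exact ⟨_, _, rfl, h₁, h₂.tail h⟩

theorem red_app_var_inv {i : ℕ} {B X : PExpr σ} (h : Red (.app (.var i) B) X) :
    ∃ B', X = .app (.var i) B' ∧ Red B B' := by
  induction h with
  | refl => exact ⟨B, rfl, Relation.ReflTransGen.refl⟩
  | tail _ hs ih =>
      obtain ⟨B', rfl, h₁⟩ := ih
      cases hs with
      | appL _ h => cases h
      | appR _ h => exact ⟨_, rfl, h₁.tail h⟩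

theorem step_lift {M N : PExpr σ} (h : Step M N) : ∀ c, Step (lift c M) (lift c N) := by
  induction h with
  | beta A M N =>
      intro c
      rw [lift_subst_lo _ c 0 _ (Nat.zero_le c)]
      exact Step.beta _ _ _
  | appL N _ ih => intro c; exact Step.appL _ (ih c)
  | appR M _ ih => intro c; exact Step.appR _ (ih c)
  | lamL M _ ih => intro c; exact Step.lamL _ (ih c)
  | lamR A _ ih => intro c; exact Step.lamR _ (ih (c + 1))
  | piL B _ ih => intro c; exact Step.piL _ (ih c)
  | piR A _ ih => intro c; exact Step.piR _ (ih (c + 1))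

theorem conv_lift {A B : PExpr σ} (h : Relation.EqvGen Step A B) (c : ℕ) :
    Relation.EqvGen Step (lift c A) (lift c B) := by
  induction h with
  | rel a b h => exact Relation.EqvGen.rel _ _ (step_lift h c)
  | refl a => exact Relation.EqvGen.refl _
  | symm a b _ ih => exact Relation.EqvGen.symm _ _ ih
  | trans a b d _ _ ih₁ ih₂ => exact Relation.EqvGen.trans _ _ _ ih₁ ih₂

theorem conv_of_Conv {S : Set σ} {A B : PExpr σ} (h : Conv S A B) : Relation.EqvGen Step A B := by
  unfold Conv at h
  induction h with
  | rel a b h => exact Relation.EqvGen.rel _ _ h.2.2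
  | refl a => exact Relation.EqvGen.refl _
  | symm a b _ ih => exact Relation.EqvGen.symm _ _ ih
  | trans a b d _ _ ih₁ ih₂ => exact Relation.EqvGen.trans _ _ _ ih₁ ih₂

/-- The declared type of a variable, read in the whole context. -/
def declType : List (PExpr σ) → ℕ → Option (PExpr σ)
  | [], _ => none
  | A :: _, 0 => some (lift 0 A)
  | _ :: Γ, i + 1 => (declType Γ i).map (lift 0)

theorem var_gen {P : Spec σ} {Γ : List (PExpr σ)} {E T : PExpr σ} (h : Typing P Γ E T) :
    ∀ i, E = .var i → ∃ D, declType Γ i = some D ∧ Relation.EqvGen Step T D := by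
  induction h with
  | ax _ => intro i hi; cases hi
  | @hyp Γ A s _ _ =>
      intro i hi
      cases hi
      exact ⟨lift 0 A, rfl, Relation.EqvGen.refl _⟩
  | @weak Γ M B A s _ _ ih₁ _ =>
      intro i hi
      cases M with
      | var j =>
          have hj : i = j + 1 := by
            simp [lift] at hi
            omega
          subst hj
          obtain ⟨D, hD, hc⟩ := ih₁ j rfl
          exact ⟨lift 0 D, by simp [declType, hD], conv_lift hc 0⟩
      | srt s => simp [lift] at hi
      | app _ _ => simp [lift] at hi
      | lam _ _ => simp [lift] at hi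
      | pi _ _ => simp [lift] at hi
  | prod _ _ _ _ _ => intro i hi; cases hi
  | abs _ _ _ _ => intro i hi; cases hi
  | appl _ _ _ _ => intro i hi; cases hi
  | conv _ _ hc ih₁ _ =>
      intro i hi
      obtain ⟨D, hD, hc'⟩ := ih₁ i hi
      exact ⟨D, hD, Relation.EqvGen.trans _ _ _ (Relation.EqvGen.symm _ _ (conv_of_Conv hc)) hc'⟩

theorem app_gen {P : Spec σ} {Γ : List (PExpr σ)} {E T : PExpr σ} (h : Typing P Γ E T) :
    ∀ M N, E = .app M N → ∃ A B, Typing P Γ M (.pi A B) ∧ Typing P Γ N A := by
  induction h with
  | ax _ => intro M N hi; cases hi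
  | hyp _ _ => intro M N hi; cases hi
  | @weak Γ M₀ B₀ A₀ s _ hA ih₁ _ =>
      intro M N hi
      cases M₀ with
      | var j =>
          exfalso
          by_cases h0 : j < 0
          · omega
          · simp [lift, h0] at hi
      | srt s => simp [lift] at hi
      | lam _ _ => simp [lift] at hi
      | pi _ _ => simp [lift] at hi
      | app M₁ N₁ =>
          simp only [lift, PExpr.app.injEq] at hi
          obtain ⟨rfl, rfl⟩ := hi
          obtain ⟨A, B, h₁, h₂⟩ := ih₁ M₁ N₁ rfl
          exact ⟨lift 0 A, lift 1 B, Typing.weak h₁ hA, Typing.weak h₂ hA⟩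
  | prod _ _ _ _ _ => intro M N hi; cases hi
  | abs _ _ _ _ => intro M N hi; cases hi
  | appl h₁ h₂ _ _ =>
      intro M N hi
      cases hi
      exact ⟨_, _, h₁, h₂⟩
  | conv _ _ _ ih₁ _ => intro M N hi; exact ih₁ M N hi

end Vale.Agent.Lib.P340
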